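import Vale.Agent.P192.R2.H577.Gro

set_option linter.all false

/-! A transitive set of a finitely presented periodic group with two points at distance `n` has more
than `C n` points, unless `n` is small. -/

namespace Vale.Agent.P192.R2.H819

open Vale.Agent.P192 Vale.Agent.P192.H437 Vale.Agent.P192.R2.H577

theorem hop_symm' {G X : Type} [Group G] [MulAction G X] {S : Set G} {n : ℕ} {x y : X}
    (h : hop S n x y) : hop S n y x := by
  obtain ⟨w, h1, h2, rfl⟩ := h
  refine ⟨(w.map fun g => g⁻¹).reverse, ?_, by simpa using h2, ?_⟩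
  · intro s hs
    rw [List.mem_reverse, List.mem_map] at hs
    obtain ⟨t, ht, rfl⟩ := hs
    rcases h1 t ht with h | h
    · exact Or.inr (by rwa [inv_inv])
    · exact Or.inl h
  · rw [← List.prod_inv_reverse, inv_smul_smul]

/-- pairwise disjoint large sets -/
theorem sum_le {X : Type} (J a : ℕ) (B : ℕ → Set X)
    (hB : ∀ i ≤ J, (a : ℕ∞) ≤ (B i).encard)
    (hd : ∀ i ≤ J, ∀ j ≤ J, i ≠ j → Disjoint (B i) (B j)) :
    (((J + 1) * a : ℕ) : ℕ∞) ≤ (Set.univ : Set X).encard := by
  have key : ∀ K ≤ J, (((K + 1) * a : ℕ) : ℕ∞) ≤ (⋃ i ∈ Finset.range (K + 1), B i).encard := by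
    intro K
    induction K with
    | zero =>
      intro hK
      simpa using hB 0 hK
    | succ K ih =>
      intro hK
      have h1 : (⋃ i ∈ Finset.range (K + 1 + 1), B i) =
          (⋃ i ∈ Finset.range (K + 1), B i) ∪ B (K + 1) := by
        rw [Finset.range_add_one, Finset.set_biUnion_insert, Set.union_comm]
      have h2 : Disjoint (⋃ i ∈ Finset.range (K + 1), B i) (B (K + 1)) := by
        rw [Set.disjoint_iUnion₂_left]
        intro i hi
        have := Finset.mem_range.1 hi
        exact hd i (by omega) (K + 1) hK (by omega)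
      rw [h1, Set.encard_union_eq h2]
      have h3 : (((K + 1 + 1) * a : ℕ) : ℕ∞) = (((K + 1) * a : ℕ) : ℕ∞) + (a : ℕ∞) := by
        rw [← Nat.cast_add]; congr 1; ring
      rw [h3]
      exact add_le_add (ih (by omega)) (hB _ hK)
  exact (key J le_rfl).trans (Set.encard_le_encard (Set.subset_univ _))

/-- (P2) -/
theorem long_orbit (G : Type) [Group G] [Group.IsFinitelyPresented G] (hG : IsMulTorsion G)
    (S : Set G) (hS : Subgroup.closure S = ⊤) (C : ℕ) :
    ∃ n0 : ℕ, ∀ (X : Type) [MulAction G X] [MulAction.IsPretransitive G X] (x y : X) (n : ℕ),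
      hop S n x y → (∀ k, k < n → ¬ hop S k x y) →
      (Set.univ : Set X).encard ≤ ((C * n : ℕ) : ℕ∞) → n ≤ n0 := by
  classical
  obtain ⟨n₁, hn₁⟩ := growth_gap.{0, 0} G hG S hS (3 * C + 3)
  obtain ⟨m, hm⟩ : ∃ m, m = n₁ + 1 := ⟨_, rfl⟩
  refine ⟨2 * m, ?_⟩
  intro X _ _ x y n hxy hmin hcard
  by_contra hn
  push Not at hn
  have hp : ∀ i, i ≤ n → ∃ p, hop S i x p ∧ hop S (n - i) p y := by
    intro i hi
    have h1 : i + (n - i) = n := by omega
    exact hop_split (by rwa [h1])
  haveI : Nonempty X := ⟨x⟩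
  choose! p hp1 hp2 using hp
  have hsep : ∀ i j d, i ≤ n → j ≤ n → hop S d (p i) (p j) → j ≤ i + d := by
    intro i j d hi hj h
    by_contra hc
    push Not at hc
    exact hmin (i + d + (n - j)) (by omega) (hop_trans (hop_trans (hp1 i hi) h) (hp2 j hj))
  have hmpos : 0 < 3 * m := by omega
  obtain ⟨J, hJ⟩ : ∃ J, J = n / (3 * m) := ⟨_, rfl⟩
  have hJn : ∀ i ≤ J, 3 * m * i ≤ n := by
    intro i hi
    calc 3 * m * i ≤ 3 * m * J := Nat.mul_le_mul_left _ hi
      _ ≤ n := by rw [hJ]; exact Nat.mul_div_le _ _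
  have hJ2 : n < (J + 1) * (3 * m) := by
    have h1 := Nat.lt_mul_div_succ n hmpos
    rw [← hJ] at h1
    rw [mul_comm]; exact h1
  have hbig : ∀ i ≤ J, (((3 * C + 3) * m : ℕ) : ℕ∞) ≤ (ballS S (p (3 * m * i)) m).encard := by
    intro i hi
    rcases hn₁ X (p (3 * m * i)) m (by omega) with h | h
    · exfalso
      have hx : hop S m (p (3 * m * i)) x := by
        have : x ∈ ballS S (p (3 * m * i)) m := by rw [h]; trivial
        exact this
      have hy : hop S m (p (3 * m * i)) y := by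
        have : y ∈ ballS S (p (3 * m * i)) m := by rw [h]; trivial
        exact this
      exact hmin (m + m) (by omega) (hop_trans (hop_symm' hx) hy)
    · exact h
  have hdis : ∀ i ≤ J, ∀ j ≤ J, i ≠ j →
      Disjoint (ballS S (p (3 * m * i)) m) (ballS S (p (3 * m * j)) m) := by
    intro i hi j hj hij
    rw [Set.disjoint_left]
    intro z hz1 hz2
    have h1 : hop S (m + m) (p (3 * m * i)) (p (3 * m * j)) := hop_trans hz1 (hop_symm' hz2)
    have h2 := hsep _ _ _ (hJn i hi) (hJn j hj) h1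
    have h3 := hsep _ _ _ (hJn j hj) (hJn i hi) (hop_symm' h1)
    rcases Nat.lt_or_gt_of_ne hij with h | h
    · have : 3 * m * (i + 1) ≤ 3 * m * j := Nat.mul_le_mul_left _ h
      rw [mul_add, mul_one] at this
      omega
    · have : 3 * m * (j + 1) ≤ 3 * m * i := Nat.mul_le_mul_left _ h
      rw [mul_add, mul_one] at this
      omega
  have h4 := (sum_le J ((3 * C + 3) * m) _ hbig hdis).trans hcard
  rw [Nat.cast_le] at h4
  have h5 : (J + 1) * ((3 * C + 3) * m) = (C + 1) * ((J + 1) * (3 * m)) := by ring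
  rw [h5] at h4
  have h6 : (C + 1) * (n + 1) ≤ (C + 1) * ((J + 1) * (3 * m)) := Nat.mul_le_mul_left _ hJ2
  have h7 : (C + 1) * (n + 1) = C * n + C + n + 1 := by ring
  omega

end Vale.Agent.P192.R2.H819
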